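import Crest.Agent.R162.K
import Crest.Agent.R162.M

/-!
# Row 162, block P: transfer of positivity by the conformal map
-/

set_option autoImplicit false

open scoped ENNReal NNReal Topology
open Set Filter MeasureTheory Metric

noncomputable section
namespace Crest.Agent.R162

open Crest.ProbabilityR.Loewner

variable {κ u c T : ℝ} {ω : Path} {γ : ℝ → ℂ}

theorem p_mem (hc : 0 < c) {ζ : ℂ} (hζ : ζ ∈ HH) (x : ℝ) : c * ζ + x ∈ HH := by
  simpa [HH] using mul_pos hc hζ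

/-- `alive_ft`, `gt_ft`, `Alive.add_iff`, `alive_scl` -/
theorem p_dom (hu : 0 ≤ u) (hc : 0 < c) {t : ℝ} (ht : 0 ≤ t) {ζ : ℂ} (hζ : ζ ∈ HH) :
    ft ω u (c * ζ + ω u) ∈ Dom ω (u + c ^ 2 * t) ↔ ζ ∈ Dom (scl c (sh u ω)) t := by
  have h1 := p_mem hc hζ (ω u)
  have h2 : Zc ω (ft ω u (c * ζ + ω u)) u = c * ζ := by rw [Zc, gt_ft hu h1, add_sub_cancel_right]
  refine ((alive_ft hu h1).add_iff (by positivity)).trans ?_
  rw [h2, ← alive_scl hc, mul_div_cancel_left₀ _ (by exact_mod_cast hc.ne')]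
  rfl

/-- `gt ω · u` is holomorphic on the open set `Dom ω u` (`hasDerivAt_gt`), hence locally Lipschitz
(`ContDiffAt.exists_lipschitzOnWith`), `LocallyLipschitzOn.exists_lipschitzOnWith_of_compact`. -/
theorem p_lip {K : Set ℂ} (hK : IsCompact K) (hKu : K ⊆ Dom ω u) (c : ℝ) :
    ∃ L : ℝ≥0, 1 ≤ L ∧ LipschitzOnWith L (fun z => Zc ω z u / c) K := by
  have hd : DifferentiableOn ℂ (fun z => Zc ω z u / c) (Dom ω u) := fun z hz =>
    (((Alive.hasDerivAt_gt hz).differentiableAt.sub_const _).div_const _).differentiableWithinAt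
  obtain ⟨L, hL⟩ := LocallyLipschitzOn.exists_lipschitzOnWith_of_compact hK (f := fun z => Zc ω z u / c)
    fun z hz => by
      obtain ⟨L, t, ht, h⟩ := ((hd.contDiffOn (n := 1) isOpen_Dom).contDiffAt
        (isOpen_Dom.mem_nhds (hKu hz))).exists_lipschitzOnWith
      exact ⟨L, t, mem_nhdsWithin_of_mem_nhds ht, h⟩
  exact ⟨max L 1, le_max_right _ _, hL.weaken (le_max_left _ _)⟩

/-- `f ζ = ft ω u (c ζ + ω u)` is continuous on `HH`; `Γ = closedBall (2 i) 1 ∩ f ⁻¹' γ[u, u + c² T]` is compact; a frontier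
point of `Dom (scl c (sh u ω)) t` is mapped to a frontier point of `Dom ω (u + c² t)` (`p_dom`, `isOpen_Dom`,
`ContinuousWithinAt.mem_closure_image`), `trace_frontier`; `Γ = (Zc ω · u / c) '' (f '' Γ)`, `p_lip`, `gauge_image_le`. -/
theorem p_transfer (hκ : 0 < κ) (hκ8 : κ < 8) (hγ : IsChordalTrace ω γ) (hu : 0 ≤ u) (hc : 0 < c)
    (h : PosAt κ T (scl c (sh u ω))) : 0 < gaugeMeasure κ (γ '' Icc u (u + c ^ 2 * T)) := by
  have hD : closedBall (2 * Complex.I) 1 ⊆ HH := fun z hz => by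
    have h1 := (abs_le.1 ((Complex.abs_im_le_norm _).trans (mem_closedBall_iff_norm.1 hz))).1
    simp at h1
    exact show 0 < z.im by linarith
  have hf : ContinuousOn (fun ζ : ℂ => ft ω u (c * ζ + ω u)) HH :=
    (differentiableOn_ft hu).continuousOn.comp (by fun_prop) fun ζ hζ => p_mem hc hζ _
  have hG : IsCompact (γ '' Icc u (u + c ^ 2 * T)) :=
    isCompact_Icc.image_of_continuousOn (hγ.continuousOn.mono fun t ht => hu.trans ht.1)
  have hΓ := (isCompact_closedBall _ _).of_isClosed_subset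
    ((hf.mono hD).preimage_isClosed_of_isClosed isClosed_closedBall hG.isClosed) inter_subset_left
  have h1 := h _ hΓ fun t ht ζ hζ => ⟨hζ.2, by
    have h2 := hD hζ.2
    have h3 : 0 ≤ c ^ 2 * t := mul_nonneg (sq_nonneg c) ht.1
    rw [isOpen_Dom.frontier_eq] at hζ
    refine image_mono (Icc_subset_Icc_right (by nlinarith [ht.2])) (trace_frontier hγ (t := u + c ^ 2 * t)
      ⟨hu, by linarith⟩ (alive_ft hu (p_mem hc h2 _)) ?_)
    rw [isOpen_Dom.frontier_eq]
    refine ⟨closure_mono ?_ (((hf ζ h2).mono fun w hw => Alive.mem hw).mem_closure_image hζ.1.1),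
      fun h4 => hζ.1.2 ((p_dom hu hc ht.1 h2).1 h4)⟩
    rintro _ ⟨w, hw, rfl⟩
    exact (p_dom hu hc ht.1 (Alive.mem hw)).2 hw⟩
  obtain ⟨L, hL, h2⟩ := p_lip (hΓ.image_of_continuousOn (hf.mono (inter_subset_left.trans hD)))
    (by rintro _ ⟨w, hw, rfl⟩; exact alive_ft hu (p_mem hc (hD hw.1) _)) c
  have h3 := gauge_image_le hκ hκ8 hL h2
  rw [image_image, EqOn.image_eq_self fun w hw => by
    rw [Zc, gt_ft hu (p_mem hc (hD hw.1) _), add_sub_cancel_right, mul_div_cancel_left₀ _ (by exact_mod_cast hc.ne')]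
    rfl] at h3
  exact (ENNReal.mul_pos_iff.1 (h1.trans_le h3)).2.trans_le (measure_mono (by rintro _ ⟨w, hw, rfl⟩; exact hw.2))

end Crest.Agent.R162
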