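import Crest.Agent.R162.W

/-!
# Row 162, block P: an event of positive probability occurs at all small scales
-/

set_option autoImplicit false

open scoped ENNReal NNReal Topology
open Set Filter MeasureTheory Metric

noncomputable section
namespace Crest.Agent.R162

open Crest.ProbabilityR.Loewner

variable {κ : ℝ} {μ : Measure Path}

theorem p_ind {A B : Set Path} {a b : Path} (h : a ∈ A ↔ b ∈ B) :
    A.indicator (1 : Path → ℝ≥0∞) a = B.indicator (1 : Path → ℝ≥0∞) b := by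
  by_cases hb : b ∈ B <;> simp [h, hb]

/-- Induction on `n`: `lintegral_eq_EE` at the constant time `s n`; the event for `n` is invariant under `Agr (s n)`
(`agr_spl`), `sh_spl`, `EE_sh`, `hμ.scale`. -/
theorem p_none (hμ : Wie κ μ) {A : Set Path} (hA : MeasurableSet A) {T : ℝ}
    (hT : ∀ ω ω', Agr T ω ω' → ω ∈ A → ω' ∈ A) {s c : ℕ → ℝ} (hs : ∀ n, 0 ≤ s n) (hc : ∀ n, 0 < c n)
    (h : ∀ i j, i < j → s i ≤ s j ∧ s i + c i ^ 2 * T ≤ s j) (n : ℕ) :
    μ {ω | ∀ i < n, scl (c i) (sh (s i) ω) ∉ A} = μ Aᶜ ^ n := by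
  have := hμ.prob
  have hm : ∀ i, Measurable fun ω => scl (c i) (sh (s i) ω) := fun i =>
    continuous_scl.measurable.comp (hμ.sh (Stop.const (hs i))).measurable
  have hE : ∀ n, MeasurableSet {ω | ∀ i < n, scl (c i) (sh (s i) ω) ∉ A} := fun n => by
    simp only [ofPred_forall]
    exact .iInter fun i => .iInter fun _ => (hm i hA).compl
  induction n with
  | zero => simp
  | succ n ih =>
    have key : ∀ {ω ω' : Path}, Agr (s n) ω ω' → ∀ i < n, scl (c i) (sh (s i) ω) ∈ A → scl (c i) (sh (s i) ω') ∈ A :=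
      fun {ω ω'} ha i hi => hT _ _ fun u hu => by
        change (ω' (s i + max (c i ^ 2 * u) 0) - ω' (s i)) / c i = (ω (s i + max (c i ^ 2 * u) 0) - ω (s i)) / c i
        rw [ha _ (h i n hi).1, ha _ (by
          rcases le_total (c i ^ 2 * u) 0 with h1 | h1
          · rw [max_eq_right h1, add_zero]
            exact (h i n hi).1
          · rw [max_eq_left h1]
            linarith [(h i n hi).2, mul_le_mul_of_nonneg_left hu (sq_nonneg (c i))])]
    rw [← lintegral_indicator_one (hE _), hμ.lintegral_eq_EE (Stop.const (hs n)) (measurable_one.indicator (hE _)),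
      pow_succ', ← ih, ← lintegral_indicator_const (hE n)]
    refine lintegral_congr fun ω => ?_
    by_cases hω : ω ∈ {ω | ∀ i < n, scl (c i) (sh (s i) ω) ∉ A}
    · rw [indicator_of_mem hω, ← (hμ.scale _ (hc n)).measure_preimage hA.compl.nullMeasurableSet,
        ← lintegral_indicator_one (continuous_scl.measurable hA.compl), ← hμ.EE_sh ω (s n)]
      refine lintegral_congr fun ω' => p_ind ?_
      refine ⟨fun h1 => h1 n n.lt_succ_self, fun h1 i hi => (Nat.lt_succ_iff_lt_or_eq.1 hi).elim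
        (fun hi h2 => hω i hi (key (fun u hu => (agr_spl _ ω ω' u hu).symm) i hi h2)) fun hi => hi ▸ h1⟩
    · rw [indicator_of_notMem hω]
      refine (lintegral_congr fun ω' => indicator_of_notMem (fun h1 => hω fun i hi h2 => ?_) _).trans lintegral_zero
      exact h1 i (hi.trans n.lt_succ_self) (key (agr_spl _ ω ω') i hi h2)

/-- `p_none` with `s n = t - (t - s) / 2 ^ n`, `c n ^ 2 * T = (t - s) / 2 ^ (n + 1)`; `μ Aᶜ < 1`. -/
theorem p_window (hμ : Wie κ μ) {A : Set Path} (hA : MeasurableSet A) (h0 : μ A ≠ 0) {T : ℝ} (hT0 : 0 < T)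
    (hT : ∀ ω ω', Agr T ω ω' → ω ∈ A → ω' ∈ A) {s t : ℝ} (hs : 0 ≤ s) (hst : s < t) :
    ∀ᵐ ω ∂μ, ∃ u c, s ≤ u ∧ 0 < c ∧ u + c ^ 2 * T ≤ t ∧ scl c (sh u ω) ∈ A := by
  have := hμ.prob
  have hd : 0 < t - s := sub_pos.2 hst
  have h1 : ∀ n : ℕ, s ≤ t - (t - s) / 2 ^ n := fun n => by
    linarith [div_le_self hd.le (one_le_pow₀ (one_le_two (α := ℝ)) (n := n))]
  have h2 : ∀ n : ℕ, √((t - s) / 2 ^ (n + 1) / T) ^ 2 * T = (t - s) / 2 ^ (n + 1) := fun n => by
    rw [Real.sq_sqrt (by positivity), div_mul_cancel₀ _ hT0.ne']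
  have h3 : ∀ n : ℕ, (t - s) / 2 ^ n = 2 * ((t - s) / 2 ^ (n + 1)) := fun n => by ring
  have h4 : ∀ n : ℕ, 0 < (t - s) / 2 ^ n := fun n => by positivity
  have key := p_none hμ hA hT (s := fun n => t - (t - s) / 2 ^ n) (c := fun n => √((t - s) / 2 ^ (n + 1) / T))
    (fun n => hs.trans (h1 n)) (fun n => by positivity) fun i j hij => by
      have : (t - s) / 2 ^ j ≤ (t - s) / 2 ^ (i + 1) := by gcongr; exacts [one_le_two, hij]
      rw [h2]
      constructor <;> linarith [h3 i, h4 (i + 1)]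
  have h5 : μ Aᶜ < 1 := by
    rw [prob_compl_eq_one_sub hA]
    exact ENNReal.sub_lt_self ENNReal.one_ne_top one_ne_zero h0
  refine nonpos_iff_eq_zero.1 (ge_of_tendsto' (ENNReal.tendsto_pow_atTop_nhds_zero_of_lt_one h5) fun n =>
    (measure_mono fun ω hω i _ hi => ?_).trans_eq (key n))
  refine hω ⟨_, _, h1 i, by positivity, ?_, hi⟩
  rw [h2]
  linarith [h3 i, h4 (i + 1)]

end Crest.Agent.R162
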