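import Crest.Agent.R162.Defs

/-!
# Row 162, block P: abstract measure theory
-/

set_option autoImplicit false

open scoped ENNReal NNReal Topology
open Set Filter MeasureTheory Metric

noncomputable section
namespace Crest.Agent.R162

open Crest.ProbabilityR.Loewner

variable {Ω : Type} [MeasurableSpace Ω]

/-- truncated moments from an exponential tail -/
theorem p_tail (p : ℕ) : ∃ C : ℝ, 0 < C ∧ ∀ (μ : Measure Path) (N : Path → ℝ≥0∞) (A B l : ℝ), Measurable N →
    (∀ ω, N ω ≠ ⊤) → 0 < B → 0 ≤ l →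
    (∀ u, 0 ≤ u → μ {ω | ENNReal.ofReal u ≤ N ω} ≤ ENNReal.ofReal (Real.exp (A - B * u))) →
    ∫⁻ ω, (if ENNReal.ofReal l ≤ N ω then N ω ^ p else 0) ∂μ ≤
      ENNReal.ofReal (C * (l + B⁻¹) ^ p * Real.exp (A - B * l)) := by
  have hs : Summable fun k : ℕ => ((k + 1 : ℕ) : ℝ) ^ p * Real.exp (-1 * (k + 1 : ℕ)) :=
    (summable_nat_add_iff 1).2 (Real.summable_pow_mul_exp_neg_nat_mul p one_pos)
  have h0 : ∀ k : ℕ, 0 ≤ ((k + 1 : ℕ) : ℝ) ^ p * Real.exp (-1 * (k + 1 : ℕ)) := fun k => by positivity
  refine ⟨Real.exp 1 * ∑' k : ℕ, ((k + 1 : ℕ) : ℝ) ^ p * Real.exp (-1 * (k + 1 : ℕ)),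
    mul_pos (Real.exp_pos 1) (hs.tsum_pos h0 0 (by positivity)), fun μ N A B l hN hN' hB hl H => ?_⟩
  have hA : ∀ k : ℕ, MeasurableSet {ω | ENNReal.ofReal (l + k / B) ≤ N ω} := fun k =>
    measurableSet_le measurable_const hN
  calc _ ≤ ∫⁻ ω, ∑' k : ℕ, {ω | ENNReal.ofReal (l + k / B) ≤ N ω}.indicator
        (fun _ => ENNReal.ofReal ((((k + 1 : ℕ) : ℝ) * (l + B⁻¹)) ^ p)) ω ∂μ := by
        refine lintegral_mono fun ω => ?_
        split_ifs with h
        swap
        · exact zero_le
        have h1 : 0 ≤ B * ((N ω).toReal - l) := mul_nonneg hB.le (sub_nonneg.2 ((ENNReal.ofReal_le_iff_le_toReal (hN' ω)).1 h))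
        have h2 := Nat.floor_le h1
        have h3 := (Nat.lt_floor_add_one (B * ((N ω).toReal - l))).le
        refine le_trans ?_ (ENNReal.le_tsum ⌊B * ((N ω).toReal - l)⌋₊)
        generalize ⌊B * ((N ω).toReal - l)⌋₊ = k at h2 h3
        rw [mul_comm, ← div_le_iff₀ hB] at h2
        rw [mul_comm, ← le_div_iff₀ hB, div_eq_mul_inv] at h3
        rw [indicator_of_mem (s := {ω | ENNReal.ofReal (l + k / B) ≤ N ω})
          ((ENNReal.ofReal_le_iff_le_toReal (hN' ω)).2 (by linarith)), ENNReal.ofReal_pow (by positivity)]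
        refine pow_le_pow_left' ((ENNReal.ofReal_toReal (hN' ω)).ge.trans (ENNReal.ofReal_le_ofReal ?_)) p
        push_cast
        nlinarith [mul_nonneg k.cast_nonneg hl]
    _ ≤ ∑' k : ℕ, ENNReal.ofReal (Real.exp 1 * (l + B⁻¹) ^ p * Real.exp (A - B * l) *
        (((k + 1 : ℕ) : ℝ) ^ p * Real.exp (-1 * (k + 1 : ℕ)))) := by
        rw [lintegral_tsum fun k => (measurable_const.indicator (hA k)).aemeasurable]
        refine ENNReal.tsum_le_tsum fun k => ?_
        rw [lintegral_indicator_const (hA k)]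
        refine (mul_le_mul_right (H _ (by positivity)) _).trans_eq ?_
        rw [← ENNReal.ofReal_mul (by positivity), show A - B * (l + k / B) = 1 + (A - B * l) + -1 * (k + 1 : ℕ) by
          push_cast; field_simp; ring, Real.exp_add, Real.exp_add, mul_pow]
        congr 1
        ring
    _ = _ := by
        rw [← ENNReal.ofReal_tsum_of_nonneg (fun k => by positivity) (hs.mul_left _), tsum_mul_left]
        congr 1
        ring

theorem p_meas_ball {a : Ω → ℂ → ℝ≥0∞} (ha : Measurable fun p : Ω × ℂ => a p.1 p.2) (r : ℝ) :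
    Measurable fun p : Ω × ℂ => ∫⁻ w in ball p.2 r, a p.1 w := by
  simp only [← lintegral_indicator measurableSet_ball]
  exact Measurable.lintegral_prod_right' (f := fun q : (Ω × ℂ) × ℂ => (ball q.1.2 r).indicator (a q.1.1) q.2)
    (Measurable.ite (measurableSet_lt (measurable_snd.dist measurable_fst.snd) measurable_const)
      (ha.comp (measurable_fst.fst.prodMk measurable_snd)) measurable_const)

/-- the mass of the heavy points, by averaging over the centres -/
theorem p_heavy {a : ℂ → ℝ≥0∞} (ha : Measurable a) {K K' : Set ℂ} (hK : MeasurableSet K) {r : ℝ} (hr : 0 < r)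
    (h : ∀ z ∈ K, ball z r ⊆ K') (l : ℝ≥0∞) :
    ENNReal.ofReal (r ^ 2) * ∫⁻ z in K, (if l ≤ ∫⁻ w in ball z r, a w then a z else 0) ≤
      ∫⁻ x in K', (if l ≤ ∫⁻ w in ball x (2 * r), a w then ∫⁻ w in ball x (2 * r), a w else 0) := by
  have hm : Measurable fun z : ℂ => if l ≤ ∫⁻ w in ball z r, a w then a z else 0 :=
    Measurable.ite (measurableSet_le measurable_const
      ((p_meas_ball (a := fun _ : Unit => a) (ha.comp measurable_snd) r).comp (measurable_prodMk_left (x := ())))) ha
      measurable_const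
  calc _ ≤ ∫⁻ z in K, ∫⁻ x in K', (ball z r).indicator (fun _ => if l ≤ ∫⁻ w in ball z r, a w then a z else 0) x := by
        rw [← lintegral_const_mul _ hm]
        refine setLIntegral_mono' hK fun z hz => ?_
        rw [lintegral_indicator_const measurableSet_ball, Measure.restrict_apply measurableSet_ball,
          inter_eq_left.2 (h z hz), Complex.volume_ball, mul_comm, ENNReal.ofReal_pow hr.le]
        refine mul_le_mul_right (le_mul_of_one_le_right' ?_) _
        exact_mod_cast (show (1 : ℝ≥0) ≤ NNReal.pi from one_le_two.trans Real.two_le_pi)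
    _ = ∫⁻ x in K', ∫⁻ z in K, (ball z r).indicator (fun _ => if l ≤ ∫⁻ w in ball z r, a w then a z else 0) x :=
        lintegral_lintegral_swap (Measurable.ite (measurableSet_lt (measurable_snd.dist measurable_fst)
          measurable_const) (hm.comp measurable_fst) measurable_const).aemeasurable
    _ ≤ _ := by
        refine lintegral_mono fun x => ?_
        have h1 : ∀ z, x ∈ ball z r → ball z r ⊆ ball x (2 * r) := fun z hz =>
          ball_subset_ball' (by linarith [mem_ball'.1 hz])
        split_ifs with h2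
        · rw [← lintegral_indicator measurableSet_ball]
          refine (setLIntegral_le_lintegral _ _).trans (lintegral_mono fun z => indicator_apply_le' (fun hz => ?_)
            fun _ => zero_le)
          rw [indicator_of_mem (h1 z hz (mem_ball_self hr))]
          split_ifs
          · exact le_rfl
          · exact zero_le
        · refine (lintegral_mono fun z => indicator_apply_le' (fun hz => ?_) fun _ => le_rfl).trans lintegral_zero.le
          rw [if_neg fun h3 => h2 (h3.trans (lintegral_mono_set (h1 z hz)))]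

/-- Paley-Zygmund and reverse Fatou -/
theorem p_pz (μ : Measure Ω) [IsProbabilityMeasure μ] {X : ℕ → Ω → ℝ≥0∞} (hX : ∀ n, Measurable (X n)) {c C : ℝ}
    (hc : 0 < c) (h1 : ∀ n, ENNReal.ofReal (2 * c) ≤ ∫⁻ ω, X n ω ∂μ)
    (h2 : ∀ n, ∫⁻ ω, X n ω ^ 2 ∂μ ≤ ENNReal.ofReal C) :
    μ {ω | ∃ᶠ n in atTop, ENNReal.ofReal c ≤ X n ω} ≠ 0 := by
  intro h0
  have hA : ∀ n, MeasurableSet {ω | ENNReal.ofReal c ≤ X n ω} := fun n => measurableSet_le measurable_const (hX n)
  have h3 := tendsto_measure_of_ae_tendsto_indicator_of_isFiniteMeasure (μ := μ) atTop MeasurableSet.empty hA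
    ((measure_eq_zero_iff_ae_notMem.1 h0).mono fun ω hω => (not_frequently.1 hω).mono fun n hn => iff_of_false hn id)
  obtain ⟨θ, hθ, hθ'⟩ : ∃ θ : ℝ, 0 < θ ∧ θ * C < c := ⟨c / (|C| + 1), by positivity, by
    rw [div_mul_eq_mul_div, div_lt_iff₀ (by positivity)]
    exact mul_lt_mul_of_pos_left (by linarith [le_abs_self C]) hc⟩
  have h4 : ∀ n, ENNReal.ofReal (2 * c) ≤ ENNReal.ofReal c + ENNReal.ofReal θ * ENNReal.ofReal C +
      (ENNReal.ofReal θ)⁻¹ * μ {ω | ENNReal.ofReal c ≤ X n ω} := fun n => by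
    refine (h1 n).trans ((lintegral_mono (g := fun ω => ENNReal.ofReal c + ENNReal.ofReal θ * X n ω ^ 2 +
      {ω | ENNReal.ofReal c ≤ X n ω}.indicator (fun _ => (ENNReal.ofReal θ)⁻¹) ω) fun ω => ?_).trans ?_)
    · beta_reduce
      rcases le_or_gt (ENNReal.ofReal c) (X n ω) with h | h
      · rw [indicator_of_mem (s := {ω | ENNReal.ofReal c ≤ X n ω}) h]
        rcases le_total (X n ω) (ENNReal.ofReal θ)⁻¹ with h' | h'
        · exact le_add_left h'
        · refine le_add_right (le_add_left ?_)
          rw [sq, ← mul_assoc]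
          refine le_mul_of_one_le_left' ((ENNReal.mul_inv_cancel (by simpa) ENNReal.ofReal_ne_top).ge.trans ?_)
          exact mul_le_mul_right h' _
      · exact le_add_right (le_add_right h.le)
    · rw [lintegral_add_right _ (measurable_const.indicator (hA n)), lintegral_add_left measurable_const,
        lintegral_const, measure_univ, mul_one, lintegral_const_mul _ ((hX n).pow_const 2),
        lintegral_indicator_const (hA n)]
      gcongr
      exact h2 n
  have h5 := ge_of_tendsto' (tendsto_const_nhds.add (ENNReal.Tendsto.const_mul h3 (Or.inr (by simpa)))) h4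
  rw [measure_empty, mul_zero, add_zero, ← ENNReal.ofReal_mul hθ.le] at h5
  refine h5.not_gt ((add_le_add_right (ENNReal.ofReal_le_ofReal (le_max_left _ 0)) _).trans_lt ?_)
  rw [← ENNReal.ofReal_add hc.le (le_max_right _ _), ENNReal.ofReal_lt_ofReal_iff (by positivity)]
  linarith [max_lt hθ' hc]

end Crest.Agent.R162
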