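import Crest.Agent.R162.P.Mom

/-!
# Row 162, block P: the mass of the points all of whose balls are light
-/

set_option autoImplicit false

open scoped ENNReal NNReal Topology
open Set Filter MeasureTheory Metric

noncomputable section
namespace Crest.Agent.R162

open Crest.ProbabilityR.Loewner

variable {κ s₀ T Λ y : ℝ} {μ : Measure Path} {k n : ℕ}

/-- points all of whose balls of the scales `k + 1, …, k + n + 1` are light -/
def Good (κ s₀ T Λ : ℝ) (k n : ℕ) (y : ℝ) (ω : Path) : Set ℂ := {z | ∀ j ≤ n,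
  nu κ s₀ y ω (ball z ((1 / 2) ^ (j + k + 1))) (Ioc 0 T) < ENNReal.ofReal (Λ * gaugeReal κ ((1 / 2) ^ (j + k)))}

/-- the good mass -/
def gm (κ s₀ T Λ : ℝ) (k n : ℕ) (y : ℝ) (ω : Path) : ℝ≥0∞ :=
  nu κ s₀ y ω (ball (2 * Complex.I) (1 / 2) ∩ Good κ s₀ T Λ k n y ω) (Ioc 0 T)

theorem p_meas_good : MeasurableSet {p : Path × ℂ | p.2 ∈ Good κ s₀ T Λ k n y p.1} := by
  simp only [Good, mem_ofPred_eq]
  simp only [ofPred_forall]
  exact .iInter fun j => .iInter fun _ => measurableSet_lt (p_meas κ s₀ y _ 0 T) measurable_const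

theorem p_meas_gm : Measurable (gm κ s₀ T Λ k n y) := by
  have h : MeasurableSet {p : Path × ℂ | p.2 ∈ ball (2 * Complex.I) (1 / 2) ∩ Good κ s₀ T Λ k n y p.1} :=
    (measurableSet_ball.preimage measurable_snd).inter p_meas_good
  convert Measurable.lintegral_prod_right' (ν := volume) ((p_meas_nz κ s₀ y 0 T).indicator h) using 1
  exact funext fun ω => (lintegral_indicator (h.preimage (measurable_prodMk_left (x := ω))) _).symm

theorem p_agr_gm {ω ω' : Path} (h : Agr T ω ω') : gm κ s₀ T Λ k n y ω' = gm κ s₀ T Λ k n y ω := by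
  have : ∀ A, nu κ s₀ y ω' A (Ioc 0 T) = nu κ s₀ y ω A (Ioc 0 T) := fun A =>
    lintegral_congr fun z => h.nz measurableSet_Ioc Ioc_subset_Iic_self
  simp only [gm, Good, this]

theorem p_mean (hκ : 0 < κ) (hκ8 : κ < 8) (hμ : Wie κ μ) (hs₀ : 0 < s₀) (hT : 0 ≤ T) {ε : ℝ} (hε : 0 < ε) :
    ∃ (Λ : ℝ) (k : ℕ), 0 ≤ Λ ∧ ∀ n, ∀ᶠ y in 𝓝[>] (0 : ℝ),
      ∫⁻ ω, nu κ s₀ y ω (ball (2 * Complex.I) (1 / 2)) (Ioc 0 T) ∂μ ≤
        ∫⁻ ω, gm κ s₀ T Λ k n y ω ∂μ + ENNReal.ofReal ε := by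
  have := hμ.prob
  obtain ⟨Λ, C, r₀, hΛ, hC, hr₀, H⟩ := p_ball hκ hκ8 hμ hs₀ hT
  have hs : Summable fun i : ℕ => 16 * C / (i * Real.log 2) ^ 2 := by
    exact ((Real.summable_nat_pow_inv.2 one_lt_two).mul_left (16 * C / Real.log 2 ^ 2)).congr fun i => by ring
  obtain ⟨k, hk, hk'⟩ := (((tendsto_sum_nat_add fun i : ℕ => 16 * C / (i * Real.log 2) ^ 2).eventually_le_const hε).and
    ((tendsto_pow_atTop_nhds_zero_of_lt_one (r := (1 / 2 : ℝ)) (by norm_num) (by norm_num)).eventually_le_const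
      hr₀)).exists
  refine ⟨Λ, k, hΛ, fun n => ?_⟩
  filter_upwards [(eventually_all_finset (Finset.range (n + 1))).2 fun j _ => H ((1 / 2) ^ (j + k)) (by positivity)
    ((pow_le_pow_of_le_one (by norm_num) (by norm_num) (Nat.le_add_left k j)).trans hk')] with y hy
  have hm : ∀ l r, Measurable fun p : Path × ℂ => if l ≤ nu κ s₀ y p.1 (ball p.2 r) (Ioc 0 T) then
      nz κ s₀ y p.1 p.2 (Ioc 0 T) else 0 := fun l r =>
    Measurable.ite (measurableSet_le measurable_const (p_meas κ s₀ y r 0 T)) (p_meas_nz κ s₀ y 0 T) measurable_const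
  refine (lintegral_mono (g := fun ω => gm κ s₀ T Λ k n y ω + ∑ j ∈ Finset.range (n + 1),
    ∫⁻ z in ball (2 * Complex.I) (1 / 2), if ENNReal.ofReal (Λ * gaugeReal κ ((1 / 2) ^ (j + k))) ≤
      nu κ s₀ y ω (ball z ((1 / 2) ^ (j + k + 1))) (Ioc 0 T) then nz κ s₀ y ω z (Ioc 0 T) else 0) fun ω => ?_).trans ?_
  · have hG : MeasurableSet (Good κ s₀ T Λ k n y ω) := p_meas_good.preimage (measurable_prodMk_left (x := ω))
    beta_reduce
    rw [← lintegral_finsetSum _ fun j _ => (hm _ _).fun_comp (measurable_prodMk_left (x := ω)), gm, nu, nu, inter_comm,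
      ← Measure.restrict_restrict hG, ← lintegral_indicator hG,
      ← lintegral_add_left (((p_meas_nz κ s₀ y 0 T).fun_comp (measurable_prodMk_left (x := ω))).indicator hG)]
    refine lintegral_mono fun z => ?_
    by_cases hz : z ∈ Good κ s₀ T Λ k n y ω
    · exact le_add_right (by rw [indicator_of_mem hz])
    · obtain ⟨j, hj, h1⟩ := not_forall₂.1 hz
      exact le_add_left ((if_pos (not_lt.1 h1)).ge.trans (Finset.single_le_sum (f := fun j =>
        if ENNReal.ofReal (Λ * gaugeReal κ ((1 / 2) ^ (j + k))) ≤ nu κ s₀ y ω (ball z ((1 / 2) ^ (j + k + 1))) (Ioc 0 T)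
        then nz κ s₀ y ω z (Ioc 0 T) else 0) (fun _ _ => zero_le) (Finset.mem_range.2 (Nat.lt_succ_of_le hj))))
  rw [lintegral_add_left p_meas_gm, lintegral_finsetSum _ fun j _ => (hm _ _).lintegral_prod_right']
  refine add_le_add_right ((Finset.sum_le_sum (g := fun j => ENNReal.ofReal (16 * C / ((j + k : ℕ) * Real.log 2) ^ 2))
    fun j hj => ?_).trans ?_) _
  · have hr : (0 : ℝ) < (1 / 2) ^ (j + k + 1) := by positivity
    have e : (2 : ℝ) * (1 / 2) ^ (j + k + 1) = (1 / 2) ^ (j + k) := by ring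
    rw [← ENNReal.mul_le_mul_iff_right (ENNReal.ofReal_pos.2 (pow_pos hr 2)).ne' ENNReal.ofReal_ne_top,
      ← lintegral_const_mul' _ _ ENNReal.ofReal_ne_top]
    refine (lintegral_mono fun ω => p_heavy (K' := ball (2 * Complex.I) 1) ((p_meas_nz κ s₀ y 0 T).fun_comp
      (measurable_prodMk_left (x := ω))) measurableSet_ball hr (fun z hz => ball_subset_ball' ?_) _).trans ?_
    · have : ((1 : ℝ) / 2) ^ (j + k + 1) ≤ (1 / 2) ^ 1 := pow_le_pow_of_le_one (by norm_num) (by norm_num) (by omega)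
      linarith [mem_ball.1 hz]
    rw [e]
    refine (lintegral_lintegral_swap (Measurable.ite (measurableSet_le measurable_const (p_meas κ s₀ y _ 0 T))
      (p_meas κ s₀ y _ 0 T) measurable_const).aemeasurable).trans_le ((setLIntegral_mono' measurableSet_ball
        fun x hx => hy j hj x (by linarith [(p_K (mem_ball_iff_norm.1 hx).le).1])).trans ?_)
    rw [setLIntegral_const, Complex.volume_ball, ← ENNReal.ofReal_coe_nnreal, ← ENNReal.ofReal_pow zero_le_one,
      ← ENNReal.ofReal_mul (by positivity), ← ENNReal.ofReal_mul (by positivity), ← ENNReal.ofReal_mul (by positivity),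
      one_div ((1 / 2 : ℝ) ^ _), ← inv_pow, one_div, inv_inv, Real.log_pow]
    refine ENNReal.ofReal_le_ofReal ((mul_le_mul_of_nonneg_left (c := 4) (by simpa using Real.pi_le_four)
      (by positivity)).trans_eq ?_)
    ring
  · rw [← ENNReal.ofReal_sum_of_nonneg fun _ _ => by positivity]
    exact ENNReal.ofReal_le_ofReal ((((summable_nat_add_iff k).2 hs).sum_le_tsum _ fun _ _ => by positivity).trans hk)

theorem p_pos (hκ : 0 < κ) (hκ8 : κ < 8) (hs₀ : 0 < s₀) (hΛ : 0 ≤ Λ) {y : ℕ → ℝ} (hy : ∀ n, 0 < y n)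
    (hy' : ∀ n, 9 * y n ≤ (1 / 2) ^ (n + k + 1)) {c : ℝ} (hc : 0 < c) {ω : Path}
    (h : ∃ᶠ n in atTop, ENNReal.ofReal c ≤ gm κ s₀ T Λ k n (y n) ω) : PosAt κ T ω := by
  intro Γ hΓ H
  obtain ⟨C, hK⟩ := exists_koebeF
  obtain ⟨φ, hφ, h⟩ := extraction_of_frequently_atTop h
  have hm := fun n => (p_meas_nz κ s₀ (y n) 0 T).fun_comp (measurable_prodMk_left (x := ω))
  have hG : ∀ n, MeasurableSet (ball (2 * Complex.I) (1 / 2) ∩ Good κ s₀ T Λ k n (y n) ω) := fun n =>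
    measurableSet_ball.inter (p_meas_good.preimage (measurable_prodMk_left (x := ω)))
  refine frostman hκ hκ8 hΓ (fun n => (volume.restrict (ball (2 * Complex.I) (1 / 2) ∩
      Good κ s₀ T Λ k (φ n) (y (φ n)) ω)).withDensity fun z => nz κ s₀ (y (φ n)) ω z (Ioc 0 T))
    (ε := fun n => (1 / 2) ^ (φ n + k + 1)) ((tendsto_pow_atTop_nhds_zero_of_lt_one (by norm_num) (by norm_num)).comp
      ((tendsto_add_atTop_nat (k + 1)).comp hφ.tendsto_atTop)) (C := Λ * 4 ^ 2) (r₀ := (1 / 2) ^ (k + 1)) hc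
    (by positivity) (fun n => (ae_withDensity_iff (hm _)).2 ((ae_restrict_mem (hG _)).mono fun z hz h0 => ?_))
    (fun n => ?_) fun n => (ae_withDensity_iff (hm _)).2 ((ae_restrict_mem (hG _)).mono fun z hz _ r h1 h2 h3 => ?_)
  · obtain ⟨t, ht, h1⟩ : ∃ t ∈ Ioc 0 T, dens κ s₀ (y (φ n)) ω z t ≠ 0 := by
      by_contra! h1
      exact h0 (setLIntegral_eq_zero measurableSet_Ioc fun t ht => by simp [h1 t ht])
    obtain ⟨h2, -, h3, -⟩ := dens_supp hκ8 (hy _) hs₀ h1
    obtain ⟨w, hw, h4⟩ := hK.exists_frontier h2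
    have h5 : dist z w ≤ (1 / 2) ^ (φ n + k + 1) := by linarith [hy' (φ n)]
    have : ((1 : ℝ) / 2) ^ (φ n + k + 1) ≤ (1 / 2) ^ 1 := pow_le_pow_of_le_one (by norm_num) (by norm_num) (by omega)
    exact ⟨w, H t (Ioc_subset_Icc_self ht) ⟨hw, mem_closedBall.2 (by
      linarith [dist_triangle_left w (2 * Complex.I) z, mem_ball.1 hz.1])⟩, h5⟩
  · rw [withDensity_apply _ MeasurableSet.univ, Measure.restrict_univ]
    exact h n
  · have h0 : (0 : ℝ) < (1 / 2) ^ (k + 1) := by positivity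
    obtain ⟨j, h4, h5⟩ := exists_nat_pow_near_of_lt_one (div_pos h2 h0) ((div_le_one h0).2 h3) one_half_pos
      one_half_lt_one
    rw [lt_div_iff₀ h0] at h4
    rw [div_le_iff₀ h0, ← pow_add, ← add_assoc] at h5
    have hj := (pow_le_pow_iff_right_of_lt_one₀ one_half_pos one_half_lt_one).1 (h1.trans h5)
    rw [withDensity_apply _ measurableSet_ball]
    refine (lintegral_mono' (Measure.restrict_mono (ball_subset_ball h5) Measure.restrict_le_self) le_rfl).trans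
      ((hz.2 j (by omega)).le.trans (ENNReal.ofReal_le_ofReal ?_))
    rw [mul_assoc]
    refine mul_le_mul_of_nonneg_left ((gaugeReal_mono hκ hκ8 (mem_Ici.2 (by positivity)) (mem_Ici.2 (by positivity))
      ?_).trans (gaugeReal_mul hκ hκ8 (by norm_num) h2.le)) hΛ
    linarith [show ((1 : ℝ) / 2) ^ (j + k) = 4 * ((1 / 2) ^ (j + 1) * (1 / 2) ^ (k + 1)) by ring]

theorem p_event (hκ : 0 < κ) (hκ8 : κ < 8) (hμ : Wie κ μ) : ∃ (T : ℝ) (A : Set Path), 0 < T ∧ MeasurableSet A ∧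
    μ A ≠ 0 ∧ (∀ ω ω', Agr T ω ω' → ω ∈ A → ω' ∈ A) ∧ ∀ ω ∈ A, PosAt κ T ω := by
  have := hμ.prob
  obtain ⟨s₀, c, C, hL⟩ := exists_low hκ hκ8 hμ
  have hT : 0 < 9 * C := by linarith [hL.one_le]
  obtain ⟨c₁, hc₁, h1⟩ := p_first hκ hμ hL
  obtain ⟨C₂, y₀, hy₀, h2⟩ := p_second hκ hκ8 hμ hL.s_pos (9 * C)
  obtain ⟨Λ, k, hΛ, h3⟩ := p_mean hκ hκ8 hμ hL.s_pos hT.le (half_pos hc₁)
  choose y hy hy' using fun n => ((h3 n).and (Ioc_mem_nhdsGT
    (show (0 : ℝ) < min (min (1 / 2) y₀) ((1 / 2) ^ (n + k + 1) / 9) by positivity))).exists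
  simp only [le_min_iff] at hy'
  refine ⟨9 * C, {ω | ∃ᶠ n in atTop, ENNReal.ofReal (c₁ / 4) ≤ gm κ s₀ (9 * C) Λ k n (y n) ω}, hT, ?_,
    p_pz μ (fun n => p_meas_gm) (by positivity) (C := C₂) (fun n => ?_) fun n => ?_, fun ω ω' h hω => ?_,
    fun ω hω => p_pos hκ hκ8 hL.s_pos hΛ (fun n => (hy' n).1) (fun n => by linarith [(hy' n).2.2]) (by positivity) hω⟩
  · simp only [frequently_atTop, ofPred_forall, ofPred_exists]
    exact .iInter fun a => .iUnion fun b => (MeasurableSet.const _).inter (measurableSet_le measurable_const p_meas_gm)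
  · refine ENNReal.le_of_add_le_add_right ENNReal.ofReal_ne_top (le_trans ?_ ((h1 _ (hy' n).1 (hy' n).2.1.1).trans (hy n)))
    rw [← ENNReal.ofReal_add (by positivity) (by positivity)]
    exact ENNReal.ofReal_le_ofReal (by linarith)
  · exact (lintegral_mono fun ω => pow_le_pow_left' (lintegral_mono_set inter_subset_left) 2).trans
      (h2 _ (hy' n).1 (hy' n).2.1.2)
  · simpa only [mem_ofPred_eq, p_agr_gm h] using hω

end Crest.Agent.R162
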