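import Crest.Agent.R162.P.Abs
import Crest.Agent.R162.O
import Crest.Agent.R162.E
import Crest.Agent.R162.K2
import Crest.Agent.R162.M

/-!
# Row 162, block P: moments of the mass of balls
-/

set_option autoImplicit false

open scoped ENNReal NNReal Topology
open Set Filter MeasureTheory Metric

noncomputable section
namespace Crest.Agent.R162

open Crest.ProbabilityR.Loewner

variable {κ s₀ : ℝ} {μ : Measure Path}

theorem p_meas_nz (κ s₀ y a b : ℝ) : Measurable fun p : Path × ℂ => nz κ s₀ y p.1 p.2 (Ioc a b) :=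
  measurable_nz.comp (f := fun p : Path × ℂ => (y, p.1, p.2, a, b)) (by fun_prop)

theorem p_K {z : ℂ} {r : ℝ} (hz : ‖z - 2 * Complex.I‖ ≤ r) : 2 - r ≤ z.im ∧ ‖z‖ ≤ 2 + r := by
  have h1 := (abs_le.1 ((Complex.abs_im_le_norm _).trans hz)).1
  have h2 := norm_sub_norm_le z (2 * Complex.I)
  simp at h1 h2
  exact ⟨by linarith, by linarith⟩

theorem p_meas (κ s₀ y r a b : ℝ) : Measurable fun p : Path × ℂ => nu κ s₀ y p.1 (ball p.2 r) (Ioc a b) := by
  exact p_meas_ball (a := fun ω z => nz κ s₀ y ω z (Ioc a b)) (p_meas_nz κ s₀ y a b) r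

theorem p_fin (hκ : 0 < κ) (hκ8 : κ < 8) (hs₀ : 0 < s₀) {y : ℝ} (hy : 0 < y) (ω : Path) (x : ℂ) (r : ℝ) (I : Set ℝ) :
    nu κ s₀ y ω (ball x r) I ≠ ⊤ := by
  refine ne_top_of_le_ne_top ?_ (lintegral_mono fun z => nz_le hκ hκ8 hy hs₀ I)
  rw [setLIntegral_const]
  exact ENNReal.mul_ne_top ENNReal.ofReal_ne_top measure_ball_lt_top.ne

theorem p_first (hκ : 0 < κ) (hμ : Wie κ μ) {c C : ℝ} (h : Low κ μ s₀ c C) : ∃ c₁ : ℝ, 0 < c₁ ∧
    ∀ y, 0 < y → y ≤ 1 / 2 →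
      ENNReal.ofReal c₁ ≤ ∫⁻ ω, nu κ s₀ y ω (ball (2 * Complex.I) (1 / 2)) (Ioc 0 (9 * C)) ∂μ := by
  have := hμ.prob
  have hc := h.c_pos
  refine ⟨c / 3 * (1 / 2) ^ 2, by positivity, fun y hy hy' => ?_⟩
  unfold nu
  rw [lintegral_lintegral_swap (p_meas_nz κ s₀ y _ _).aemeasurable]
  refine le_trans ?_ (setLIntegral_mono' (f := fun _ => ENNReal.ofReal (c / 3)) measurableSet_ball fun z hz => ?_)
  · rw [setLIntegral_const, Complex.volume_ball, ENNReal.ofReal_mul (by positivity), ENNReal.ofReal_pow (by norm_num)]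
    refine mul_le_mul_right (le_mul_of_one_le_right' ?_) _
    exact_mod_cast (show (1 : ℝ≥0) ≤ NNReal.pi from one_le_two.trans Real.two_le_pi)
  · obtain ⟨h1, h2⟩ := p_K (mem_ball_iff_norm.1 hz).le
    have h3 : (3 : ℝ)⁻¹ ≤ z.im ^ (-bb κ) := by
      refine (inv_anti₀ (by linarith) (by linarith [Complex.im_le_norm z] : z.im ≤ 3)).trans ?_
      rw [← Real.rpow_neg_one]
      exact Real.rpow_le_rpow_of_exponent_le (by linarith) (by unfold bb; linarith)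
    refine ((ENNReal.ofReal_le_ofReal (mul_le_mul_of_nonneg_left h3 hc.le)).trans
      (h.low z y (by linarith) hy (by linarith))).trans ((setLIntegral_le_lintegral _ _).trans
        (lintegral_mono fun ω => lintegral_mono_set (Ioc_subset_Ioc_right ?_)))
    rw [mul_comm 9]
    exact mul_le_mul_of_nonneg_left (by nlinarith [norm_nonneg z]) (zero_le_one.trans h.one_le)

theorem p_cond (hκ : 0 < κ) (hκ8 : κ < 8) (hs₀ : 0 < s₀) {c C : ℝ} (h : Tail κ μ s₀ c C) (p : ℕ) :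
    ∃ C' : ℝ, 0 < C' ∧ ∀ (ω : Path) (s T : ℝ) (x : ℂ) (r m y l : ℝ), 0 ≤ s → 0 < r → 1 ≤ m → 0 < y →
      y ≤ c * r / m → 0 ≤ l → (∀ z ∈ ball x r, Alive ω z s ∧ 3 * r / m ≤ Up ω z s) →
      EE μ ω s (fun ω₁ => if ENNReal.ofReal l ≤ nu κ s₀ y ω₁ (ball x r) (Ioc s T) then
        nu κ s₀ y ω₁ (ball x r) (Ioc s T) ^ p else 0) ≤ ENNReal.ofReal (C' * (l + (c * (m / r) ^ (2 - bb κ))⁻¹) ^ p *
          Real.exp (C * m ^ 2 - c * (m / r) ^ (2 - bb κ) * l)) := by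
  obtain ⟨C', hC', H⟩ := p_tail p
  refine ⟨C', hC', fun ω s T x r m y l hs hr hm hy hy' hl hz => H μ _ _ _ l ((p_meas κ s₀ y r s T).comp
    (f := fun ω' => (spl s ω ω', x)) ((continuous_spl.measurable.comp (f := fun ω' => (s, ω, ω'))
      (by fun_prop)).prodMk measurable_const)) (fun _ => p_fin hκ hκ8 hs₀ hy _ _ _ _) ?_ hl
    fun u hu => h.tail ω s T x r m y u hs hr hm hy hy' hu hz⟩
  have := h.c_pos
  have : 0 < m := by linarith
  positivity

theorem p_second (hκ : 0 < κ) (hκ8 : κ < 8) (hμ : Wie κ μ) (hs₀ : 0 < s₀) (T : ℝ) : ∃ C y₀ : ℝ, 0 < y₀ ∧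
    ∀ y, 0 < y → y ≤ y₀ →
      ∫⁻ ω, nu κ s₀ y ω (ball (2 * Complex.I) (1 / 2)) (Ioc 0 T) ^ 2 ∂μ ≤ ENNReal.ofReal C := by
  obtain ⟨c, C, h⟩ := exists_tail hκ hκ8 hμ hs₀
  obtain ⟨C', -, H⟩ := p_cond hκ hκ8 hs₀ h 2
  refine ⟨_, c * (1 / 2) / 1, by have := h.c_pos; positivity, fun y hy hy' => le_trans ?_
    (H 0 0 T (2 * Complex.I) (1 / 2) 1 y 0 le_rfl (by norm_num) le_rfl hy hy' le_rfl fun z hz => ?_)⟩
  · rw [hμ.EE_zero fun _ _ => rfl]
    simp
  · have h1 := (p_K (mem_ball_iff_norm.1 hz).le).1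
    have h2 : z ∈ HH := show 0 < z.im by linarith
    exact ⟨alive_zero.2 h2, by rw [Up_zero h2]; linarith⟩

theorem p_ball (hκ : 0 < κ) (hκ8 : κ < 8) (hμ : Wie κ μ) (hs₀ : 0 < s₀) {T : ℝ} (hT : 0 ≤ T) :
    ∃ Λ C r₀ : ℝ, 0 ≤ Λ ∧ 0 ≤ C ∧ 0 < r₀ ∧ ∀ r, 0 < r → r ≤ r₀ → ∀ᶠ y in 𝓝[>] (0 : ℝ), ∀ x : ℂ, 1 ≤ x.im →
      ∫⁻ ω, (if ENNReal.ofReal (Λ * gaugeReal κ r) ≤ nu κ s₀ y ω (ball x r) (Ioc 0 T) then
        nu κ s₀ y ω (ball x r) (Ioc 0 T) else 0) ∂μ ≤ ENNReal.ofReal (C * r ^ 2 / Real.log (1 / r) ^ 2) := by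
  obtain ⟨c, C, h⟩ := exists_tail hκ hκ8 hμ hs₀
  obtain ⟨C', hC', H⟩ := p_cond hκ hκ8 hs₀ h 1
  have ha : 0 < aa κ := sub_pos.2 ((one_lt_div hκ).2 hκ8)
  obtain ⟨CL, hL⟩ := exists_lyap hκ hκ8 hμ (g := min (aa κ / 2) 2) (by positivity)
    (min_lt_of_left_lt (half_lt_self ha)) (min_le_right _ _)
  obtain ⟨CK, hK⟩ := exists_koebeF
  have hc := h.c_pos
  have hC := h.one_le
  have hCL := hL.one_le
  have hCK : 0 < CK := by linarith [hK.two_le]
  have hb : 0 < bb κ ∧ bb κ < 1 := by unfold bb; constructor <;> linarith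
  refine ⟨(C + 3) / c, C' * ((C + 3) / c + c⁻¹) * (CL * (3 * CK) ^ bb κ), min (Real.exp (-Real.exp 1)) (9 * CK)⁻¹,
    by positivity, by positivity, by positivity, fun r hr hr0 => ?_⟩
  rw [le_min_iff, le_inv_comm₀ hr (by positivity), ← one_div, le_div_iff₀ hr] at hr0
  have hl := M.log_ge hr hr0.1
  have hll := M.ll_ge hr hr0.1
  rw [gaugeReal_eq κ hr0.1]
  obtain ⟨m, hm, hm2⟩ : ∃ m : ℝ, 1 ≤ m ∧ m ^ 2 = Real.log (Real.log (1 / r)) :=
    ⟨_, Real.one_le_sqrt.2 hll, Real.sq_sqrt (by linarith)⟩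
  have hm0 : 0 < m := by linarith
  filter_upwards [Ioc_mem_nhdsGT (show 0 < min r (c * r / m) by positivity)] with y ⟨hy, hy'⟩ x hx
  rw [le_min_iff] at hy'
  have hρ : 0 < 3 * CK * r := by positivity
  have hρx : 3 * (3 * CK * r) ≤ x.im := by linarith
  have hτ := stop_hitU x (3 * CK * r) hT
  have hN : Measurable fun ω => nu κ s₀ y ω (ball x r) (Ioc 0 T) :=
    (p_meas κ s₀ y r 0 T).comp (measurable_prodMk_right (y := x))
  have hH : MeasurableSet (Hit x (3 * CK * r) T) :=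
    measurableSet_hit.preimage (f := fun ω : Path => (ω, x, 3 * CK * r, T)) (by fun_prop)
  have hB : ball x r ⊆ ball x (3 * CK * r / CK) := ball_subset_ball (by rw [le_div_iff₀ hCK]; linarith)
  have hl0 : 0 < Real.log (1 / r) := (Real.exp_pos 1).trans_le hl
  have key : C' * ((C + 3) / c * (r ^ (2 - bb κ) * Real.log (Real.log (1 / r)) ^ (bb κ / 2)) +
      (c * (m / r) ^ (2 - bb κ))⁻¹) ^ 1 * Real.exp (C * m ^ 2 - c * (m / r) ^ (2 - bb κ) *
        ((C + 3) / c * (r ^ (2 - bb κ) * Real.log (Real.log (1 / r)) ^ (bb κ / 2)))) ≤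
      C' * ((C + 3) / c + c⁻¹) * (r ^ (2 - bb κ) / Real.log (1 / r) ^ 2) := by
    have e1 : Real.log (Real.log (1 / r)) ^ (bb κ / 2) = m ^ bb κ := by
      rw [← hm2, ← Real.rpow_two, ← Real.rpow_mul hm0.le, mul_div_cancel₀ _ two_ne_zero]
    have e2 : m ^ (2 - bb κ) * m ^ bb κ = m ^ 2 := by rw [← Real.rpow_add hm0, sub_add_cancel, Real.rpow_two]
    have e3 : Real.exp (-(3 * m ^ 2)) = (Real.log (1 / r) ^ 3)⁻¹ := by
      rw [Real.exp_neg, hm2, ← Nat.cast_ofNat, Real.exp_nat_mul, Real.exp_log hl0]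
    have a1 : 1 ≤ m ^ (2 - bb κ) := Real.one_le_rpow hm (by linarith)
    have a2 : 0 < m ^ bb κ := by positivity
    have a3 : m ^ bb κ ≤ Real.log (1 / r) := by nlinarith [Real.log_le_sub_one_of_pos hl0]
    have a4 : 1 ≤ Real.log (1 / r) := by linarith [Real.add_one_le_exp 1]
    have a5 : 0 < r ^ (2 - bb κ) := by positivity
    rw [e1, Real.div_rpow hm0.le hr.le, pow_one, show C * m ^ 2 - c * (m ^ (2 - bb κ) / r ^ (2 - bb κ)) *
      ((C + 3) / c * (r ^ (2 - bb κ) * m ^ bb κ)) = -(3 * m ^ 2) by rw [← e2]; field_simp; ring, e3,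
      mul_inv, inv_div]
    calc _ ≤ C' * ((C + 3) / c * (r ^ (2 - bb κ) * Real.log (1 / r)) + c⁻¹ * (r ^ (2 - bb κ) * Real.log (1 / r))) *
          (Real.log (1 / r) ^ 3)⁻¹ := by
          gcongr
          exact (div_le_self a5.le a1).trans (le_mul_of_one_le_right a5.le a4)
      _ = _ := by field_simp
  rw [hμ.lintegral_eq_EE hτ (Measurable.ite (measurableSet_le measurable_const hN) hN measurable_const)]
  refine (lintegral_mono (g := (Hit x (3 * CK * r) T).indicator fun _ => ENNReal.ofReal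
    (C' * ((C + 3) / c + c⁻¹) * (r ^ (2 - bb κ) / Real.log (1 / r) ^ 2))) fun ω => ?_).trans ?_
  · have e : ∀ ω', nu κ s₀ y (spl (hitU x (3 * CK * r) T ω) ω ω') (ball x r) (Ioc 0 T) =
        nu κ s₀ y (spl (hitU x (3 * CK * r) T ω) ω ω') (ball x r) (Ioc (hitU x (3 * CK * r) T ω) T) := fun ω' => by
      rw [hK.nu_before_hit hκ8 hs₀ hy hρ (by linarith) hT (by gcongr; exact hy'.1) hB, hτ.agr _ _ (agr_spl _ ω ω')]
    simp only [EE, e]
    by_cases hω : ω ∈ Hit x (3 * CK * r) T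
    · rw [indicator_of_mem hω]
      obtain ⟨h1, h2⟩ := hitU_spec hω
      rw [min_eq_left (by linarith)] at h2
      refine le_trans (le_of_eq ?_) ((H ω _ T x r m y _ (hτ.nonneg ω) hr hm hy hy'.2 (by positivity) fun z hz => ?_).trans
        (ENNReal.ofReal_le_ofReal key))
      · simp only [EE, pow_one]
      · obtain ⟨h3, -, -, -, -, h4, -⟩ := hK.near ω x _ h1 z (by rw [h2]; exact hB hz)
        refine ⟨h3, (div_le_self (by positivity) hm).trans (le_of_mul_le_mul_left ?_ hCK)⟩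
        linarith
    · simp [hitU_of_not_hit hω, nu, nz]
  · rw [lintegral_indicator_const hH]
    refine (mul_le_mul_right (hL.hit0 x _ T hρ hρx) _).trans ?_
    rw [← ENNReal.ofReal_mul (by positivity)]
    refine ENNReal.ofReal_le_ofReal ?_
    calc _ ≤ C' * ((C + 3) / c + c⁻¹) * (r ^ (2 - bb κ) / Real.log (1 / r) ^ 2) * (CL * (3 * CK * r) ^ bb κ) := by
          gcongr
          · exact hb.1.le
          · exact div_le_self hρ.le hx
      _ = _ := by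
          rw [Real.mul_rpow (by positivity) hr.le, ← Real.rpow_two r, ← sub_add_cancel 2 (bb κ), Real.rpow_add hr,
            add_sub_cancel_right]
          ring

end Crest.Agent.R162
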